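import Vale.Agent.P369.H632.MainZ
import Vale.Agent.P369.H374.Thm
import Vale.Agent.P369.H903.Raw
import Vale.Agent.P369.H903.Glue
import Vale.Agent.P369.H447.ThmEnd
import Vale.Agent.P369.H447.Gibbs
import Vale.Agent.P369.H688.Lg
import Vale.Agent.P369.H688.BS
import Vale.Agent.P369.H587.Eb
import Vale.Agent.P369.H587.DpThm
import Vale.Agent.P369.H168.Pen
import Vale.Agent.P369.H916.First
import Vale.Agent.P369.H27.Sum
import Vale.Agent.P369.H993.ThmVar
import Vale.Agent.P369.H255.ThmOI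
import Vale.Agent.P369.H210.Low
import Vale.Agent.P369.H124.Top5

/-!
P369 (helper499): assembly of the finite-matrix proof of the entropy photon-number inequality.
-/

set_option linter.all false

namespace Vale.Agent.P369Main

open Vale.Agent.P369 (Conf)
open Vale.Agent.P369.FD
open Vale.Agent.P369.Sys

theorem lin_of_chain (hCHAIN : S_CHAIN) : S_LIN :=
  thm_LIM thm_BS
    (thm_MAINZ (thm_RAW thm_BS thm_DP thm_VAR thm_OI thm_FIRST thm_SUM hCHAIN)
      thm_LG thm_HB thm_CARD thm_LOW thm_PEN thm_EB)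
    thm_END thm_GIBBS

theorem epni_of_chain (hCHAIN : S_CHAIN) {n : ℕ} (hn : 1 ≤ n) {η : ℝ} (h0 : 0 ≤ η) (h1 : η ≤ 1)
    {H K : Type} [NormedAddCommGroup H] [InnerProductSpace ℂ H] [CompleteSpace H]
    [NormedAddCommGroup K] [InnerProductSpace ℂ K] [CompleteSpace K]
    (e : Conf n → H) (he : IsNumberBasis e)
    (f : Conf n → Conf n → K) (hf : IsNumberBasis fun x : Conf n × Conf n => f x.1 x.2)
    (ρA ρB : H →L[ℂ] H) (hA : IsState e ρA) (hB : IsState e ρB)
    (eA : FiniteEnergy e ρA) (eB : FiniteEnergy e ρB) :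
    (∃ ρC : H →L[ℂ] H, IsOutput η e f ρA ρB ρC) ∧
    ∀ ρC : H →L[ℂ] H, IsOutput η e f ρA ρB ρC → IsState e ρC ∧ FiniteEnergy e ρC ∧
      η * photonNumber e ρA + (1 - η) * photonNumber e ρB ≤ photonNumber e ρC :=
  Vale.Agent.P369Top.epni_of_linFin hn (linFin_of_S_LIN (lin_of_chain hCHAIN) n) h0 h1 e he f hf
    ρA ρB hA hB eA eB

end Vale.Agent.P369Main
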