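import Vale.Agent.P369.H499.Assembly
import Vale.Agent.P369.H395.Chain

/-!
P369 (helper499): the entropy photon-number inequality.
-/

set_option linter.all false

namespace Vale.Agent.P369Main

open Vale.Agent.P369 (Conf)
open Vale.Agent.P369.FD
open Vale.Agent.P369.Sys

/-- the linearised inequality for pairs of density matrices with finitely many photons -/
theorem lin : S_LIN := lin_of_chain Vale.Agent.P369.H395.thm_CHAIN

/-- the entropy photon-number inequality -/
theorem epni {n : ℕ} (hn : 1 ≤ n) {η : ℝ} (h0 : 0 ≤ η) (h1 : η ≤ 1)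
    {H K : Type} [NormedAddCommGroup H] [InnerProductSpace ℂ H] [CompleteSpace H]
    [NormedAddCommGroup K] [InnerProductSpace ℂ K] [CompleteSpace K]
    (e : Conf n → H) (he : IsNumberBasis e)
    (f : Conf n → Conf n → K) (hf : IsNumberBasis fun x : Conf n × Conf n => f x.1 x.2)
    (ρA ρB : H →L[ℂ] H) (hA : IsState e ρA) (hB : IsState e ρB)
    (eA : FiniteEnergy e ρA) (eB : FiniteEnergy e ρB) :
    (∃ ρC : H →L[ℂ] H, IsOutput η e f ρA ρB ρC) ∧
    ∀ ρC : H →L[ℂ] H, IsOutput η e f ρA ρB ρC → IsState e ρC ∧ FiniteEnergy e ρC ∧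
      η * photonNumber e ρA + (1 - η) * photonNumber e ρB ≤ photonNumber e ρC :=
  epni_of_chain Vale.Agent.P369.H395.thm_CHAIN hn h0 h1 e he f hf ρA ρB hA hB eA eB

end Vale.Agent.P369Main
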